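import Mathlib

/-!
P159 T1, D.pot (P4): log-polar coordinates on the lattice. Sites are points of `ℂ`, the slit is the
negative real axis, `lw z = log z + π i = τ + i θ` with `θ ∈ (0, 2π]` the angle from the lower lip.
-/

open Complex MeasureTheory Set Metric
open scoped ComplexOrder

namespace Vale.Agent.P159.R2.H395

noncomputable section

/-- the point of the plane of a site (the tip of the slit is the origin) -/
def pt (p : ℤ × ℤ) : ℂ := ⟨p.1 + 1 / 2, p.2 + 1 / 2⟩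

/-- the log-polar coordinate -/
def lw (z : ℂ) : ℂ := Complex.log z + Real.pi * I

/-- closed unit cell with lower left corner `a` -/
def ccell (a : ℂ) : Set ℂ := Icc a.re (a.re + 1) ×ℂ Icc a.im (a.im + 1)

/-- half open unit cell with lower left corner `a` -/
def qcell (a : ℂ) : Set ℂ := Ico a.re (a.re + 1) ×ℂ Ico a.im (a.im + 1)

lemma mem_ccell {a z : ℂ} :
    z ∈ ccell a ↔ (a.re ≤ z.re ∧ z.re ≤ a.re + 1) ∧ (a.im ≤ z.im ∧ z.im ≤ a.im + 1) := Iff.rfl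

lemma mem_qcell {a z : ℂ} :
    z ∈ qcell a ↔ (a.re ≤ z.re ∧ z.re < a.re + 1) ∧ (a.im ≤ z.im ∧ z.im < a.im + 1) := Iff.rfl

lemma qcell_subset (a : ℂ) : qcell a ⊆ ccell a := fun _ hz =>
  ⟨⟨hz.1.1, hz.1.2.le⟩, ⟨hz.2.1, hz.2.2.le⟩⟩

lemma convex_ccell (a : ℂ) : Convex ℝ (ccell a) :=
  ((convex_Icc a.re (a.re + 1)).linear_preimage Complex.reLm).inter
    ((convex_Icc a.im (a.im + 1)).linear_preimage Complex.imLm)

lemma self_mem (a : ℂ) : a ∈ ccell a := by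
  rw [mem_ccell]; constructor <;> constructor <;> linarith

lemma add_one_mem (a : ℂ) : a + 1 ∈ ccell a := by
  rw [mem_ccell]; simp

lemma add_I_mem (a : ℂ) : a + I ∈ ccell a := by
  rw [mem_ccell]; simp

lemma isCompact_ccell (a : ℂ) : IsCompact (ccell a) := isCompact_Icc.reProdIm isCompact_Icc

lemma measurableSet_qcell (a : ℂ) : MeasurableSet (qcell a) :=
  (Complex.measurable_re measurableSet_Ico).inter (Complex.measurable_im measurableSet_Ico)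

lemma volume_qcell (a : ℂ) : volume (qcell a) = 1 := by
  have h := Complex.volume_preserving_equiv_real_prod.measure_preimage
    (s := Ico a.re (a.re + 1) ×ˢ Ico a.im (a.im + 1))
    (measurableSet_Ico.prod measurableSet_Ico).nullMeasurableSet
  have h2 : (Complex.measurableEquivRealProd ⁻¹' (Ico a.re (a.re + 1) ×ˢ Ico a.im (a.im + 1)))
      = qcell a := by
    ext z
    simp [mem_qcell, Complex.measurableEquivRealProd]
  rw [h2] at h
  rw [h, Measure.volume_eq_prod, Measure.prod_prod, Real.volume_Ico, Real.volume_Ico]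
  simp

lemma dist_cell {a z z' : ℂ} (hz : z ∈ ccell a) (hz' : z' ∈ ccell a) : ‖z - z'‖ ≤ 2 := by
  rw [mem_ccell] at hz hz'
  refine (norm_le_abs_re_add_abs_im _).trans ?_
  have h1 : |(z - z').re| ≤ 1 := by rw [sub_re, abs_le]; constructor <;> linarith [hz.1.1, hz.1.2, hz'.1.1, hz'.1.2]
  have h2 : |(z - z').im| ≤ 1 := by rw [sub_im, abs_le]; constructor <;> linarith [hz.2.1, hz.2.2, hz'.2.1, hz'.2.2]
  linarith

lemma half_le {a z : ℂ} (ha : 4 ≤ ‖a‖) (hz : z ∈ ccell a) : ‖a‖ / 2 ≤ ‖z‖ := by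
  have h1 := dist_cell (self_mem a) hz
  have h2 := norm_sub_norm_le a z
  linarith

lemma inv_le {a z : ℂ} (ha : 4 ≤ ‖a‖) (hz : z ∈ ccell a) : ‖z⁻¹‖ ≤ 2 / ‖a‖ := by
  have h1 := half_le ha hz
  have h0 : (0:ℝ) < ‖a‖ / 2 := by linarith
  rw [norm_inv]
  calc ‖z‖⁻¹ ≤ (‖a‖ / 2)⁻¹ := inv_anti₀ h0 h1
    _ = 2 / ‖a‖ := by rw [inv_div]

lemma hasDerivAt_lw {z : ℂ} (hz : z ∈ slitPlane) : HasDerivAt lw z⁻¹ z :=
  (Complex.hasDerivAt_log hz).add_const _

lemma hasFDerivAt_lw {z : ℂ} (hz : z ∈ slitPlane) :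
    HasFDerivAt lw (z⁻¹ • (1 : ℂ →L[ℝ] ℂ)) z := (hasDerivAt_lw hz).complexToReal_fderiv

/-- the coordinate is Lipschitz with constant `2/|a|` on a cell -/
lemma lw_lip {a z z' : ℂ} (ha : 4 ≤ ‖a‖) (hs : ccell a ⊆ slitPlane) (hz : z ∈ ccell a)
    (hz' : z' ∈ ccell a) : ‖lw z - lw z'‖ ≤ 2 / ‖a‖ * ‖z - z'‖ :=
  (convex_ccell a).norm_image_sub_le_of_norm_hasDerivWithin_le
    (fun _ hx => (hasDerivAt_lw (hs hx)).hasDerivWithinAt) (fun _ hx => inv_le ha hx) hz' hz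

/-- the derivative of `F ∘ lw` -/
def dl (F' : ℂ → ℂ →L[ℝ] ℝ) (z : ℂ) : ℂ →L[ℝ] ℝ := (F' (lw z)).comp (z⁻¹ • (1 : ℂ →L[ℝ] ℂ))

lemma dl_apply (F' : ℂ → ℂ →L[ℝ] ℝ) (z v : ℂ) : dl F' z v = F' (lw z) (z⁻¹ * v) := rfl

lemma norm_dl_le {F' : ℂ → ℂ →L[ℝ] ℝ} {a z : ℂ} {M : ℝ} (ha : 4 ≤ ‖a‖) (hz : z ∈ ccell a)
    (hM : ‖F' (lw z)‖ ≤ M) : ‖dl F' z‖ ≤ 2 * M / ‖a‖ := by
  have hM0 : 0 ≤ M := (norm_nonneg _).trans hM
  have ha0 : 0 < ‖a‖ := by linarith
  refine ContinuousLinearMap.opNorm_le_bound _ (by positivity) fun v => ?_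
  rw [dl_apply]
  calc ‖F' (lw z) (z⁻¹ * v)‖ ≤ ‖F' (lw z)‖ * ‖z⁻¹ * v‖ := ContinuousLinearMap.le_opNorm _ _
    _ ≤ M * (2 / ‖a‖ * ‖v‖) := by
        rw [norm_mul]
        have := inv_le ha hz
        gcongr
    _ = 2 * M / ‖a‖ * ‖v‖ := by ring

lemma dl_lip {F' : ℂ → ℂ →L[ℝ] ℝ} {a z z' : ℂ} {M : ℝ} (ha : 4 ≤ ‖a‖) (hs : ccell a ⊆ slitPlane)
    (hz : z ∈ ccell a) (hz' : z' ∈ ccell a) (hM : ‖F' (lw z')‖ ≤ M)
    (hL : ‖F' (lw z) - F' (lw z')‖ ≤ M * ‖lw z - lw z'‖) :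
    ‖dl F' z - dl F' z'‖ ≤ 16 * M / ‖a‖ ^ 2 := by
  have hM0 : 0 ≤ M := (norm_nonneg _).trans hM
  have ha0 : 0 < ‖a‖ := by linarith
  have h1 := inv_le ha hz
  have h1' := inv_le ha hz'
  have h2 := lw_lip ha hs hz hz'
  have h3 := dist_cell hz hz'
  have hz0 : z ≠ 0 := slitPlane_ne_zero (hs hz)
  have hz0' : z' ≠ 0 := slitPlane_ne_zero (hs hz')
  have h4 : ‖z⁻¹ - z'⁻¹‖ ≤ 8 / ‖a‖ ^ 2 := by
    have e : z⁻¹ - z'⁻¹ = z⁻¹ * z'⁻¹ * (z' - z) := by field_simp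
    rw [e, norm_mul, norm_mul, norm_sub_rev z' z]
    calc ‖z⁻¹‖ * ‖z'⁻¹‖ * ‖z - z'‖ ≤ 2 / ‖a‖ * (2 / ‖a‖) * 2 := by gcongr
      _ = 8 / ‖a‖ ^ 2 := by field_simp; ring
  have h5 : ‖lw z - lw z'‖ ≤ 4 / ‖a‖ := by
    calc _ ≤ 2 / ‖a‖ * ‖z - z'‖ := h2
      _ ≤ 2 / ‖a‖ * 2 := by gcongr
      _ = 4 / ‖a‖ := by ring
  refine ContinuousLinearMap.opNorm_le_bound _ (by positivity) fun v => ?_
  have e : (dl F' z - dl F' z') v
      = (F' (lw z) - F' (lw z')) (z⁻¹ * v) + F' (lw z') ((z⁻¹ - z'⁻¹) * v) := by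
    rw [sub_apply, sub_apply, dl_apply, dl_apply, sub_mul, map_sub]
    ring
  rw [e]
  calc _ ≤ ‖(F' (lw z) - F' (lw z')) (z⁻¹ * v)‖ + ‖F' (lw z') ((z⁻¹ - z'⁻¹) * v)‖ := norm_add_le _ _
    _ ≤ ‖F' (lw z) - F' (lw z')‖ * ‖z⁻¹ * v‖ + ‖F' (lw z')‖ * ‖(z⁻¹ - z'⁻¹) * v‖ :=
        add_le_add (ContinuousLinearMap.le_opNorm _ _) (ContinuousLinearMap.le_opNorm _ _)
    _ ≤ M * (4 / ‖a‖) * (2 / ‖a‖ * ‖v‖) + M * (8 / ‖a‖ ^ 2 * ‖v‖) := by
        rw [norm_mul, norm_mul]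
        have h6 : ‖F' (lw z) - F' (lw z')‖ ≤ M * (4 / ‖a‖) := hL.trans (by gcongr)
        gcongr
    _ = 16 * M / ‖a‖ ^ 2 * ‖v‖ := by field_simp; ring

/-- hypotheses on one cell: the function `F` of the log-polar coordinate is differentiable on the
image of the closed cell, with derivative bounded by `M` and Lipschitz with constant `M` -/
structure CellC2 (F : ℂ → ℝ) (F' : ℂ → ℂ →L[ℝ] ℝ) (M : ℝ) (a : ℂ) : Prop where
  slit : ccell a ⊆ slitPlane
  deriv : ∀ z ∈ ccell a, HasFDerivAt F (F' (lw z)) (lw z)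
  bound : ∀ z ∈ ccell a, ‖F' (lw z)‖ ≤ M
  lip : ∀ z ∈ ccell a, ∀ z' ∈ ccell a, ‖F' (lw z) - F' (lw z')‖ ≤ M * ‖lw z - lw z'‖

namespace CellC2

variable {F : ℂ → ℝ} {F' : ℂ → ℂ →L[ℝ] ℝ} {M : ℝ} {a : ℂ}

lemma hasFDerivAt (h : CellC2 F F' M a) {z : ℂ} (hz : z ∈ ccell a) :
    HasFDerivAt (fun z => F (lw z)) (dl F' z) z :=
  (h.deriv z hz).comp z (hasFDerivAt_lw (h.slit hz))

lemma M_nonneg (h : CellC2 F F' M a) : 0 ≤ M := (norm_nonneg _).trans (h.bound a (self_mem a))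

/-- crude bound of a difference -/
lemma diff_le (h : CellC2 F F' M a) (ha : 4 ≤ ‖a‖) {z z' : ℂ} (hz : z ∈ ccell a)
    (hz' : z' ∈ ccell a) : |F (lw z) - F (lw z')| ≤ 2 * M / ‖a‖ * ‖z - z'‖ :=
  (convex_ccell a).norm_image_sub_le_of_norm_hasFDerivWithin_le
    (fun _ hx => (h.hasFDerivAt hx).hasFDerivWithinAt)
    (fun _ hx => norm_dl_le ha hx (h.bound _ hx)) hz' hz

/-- first order expansion of a difference, the derivative taken anywhere in the cell -/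
lemma diff_approx (h : CellC2 F F' M a) (ha : 4 ≤ ‖a‖) {z z' z₀ : ℂ} (hz : z ∈ ccell a)
    (hz' : z' ∈ ccell a) (hz₀ : z₀ ∈ ccell a) :
    |F (lw z) - F (lw z') - dl F' z₀ (z - z')| ≤ 16 * M / ‖a‖ ^ 2 * ‖z - z'‖ :=
  (convex_ccell a).norm_image_sub_le_of_norm_hasFDerivWithin_le'
    (fun _ hx => (h.hasFDerivAt hx).hasFDerivWithinAt)
    (fun _ hx => dl_lip ha h.slit hx hz₀ (h.bound _ hz₀) (h.lip _ hx _ hz₀)) hz' hz

end CellC2

/-- the inner product of two gradients -/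
def gip (A B : ℂ →L[ℝ] ℝ) : ℝ := A 1 * B 1 + A I * B I

lemma gip_comp (A B : ℂ →L[ℝ] ℝ) (u : ℂ) :
    A u * B u + A (u * I) * B (u * I) = ‖u‖ ^ 2 * gip A B := by
  have e1 : ∀ C : ℂ →L[ℝ] ℝ, C u = u.re * C 1 + u.im * C I := fun C => by
    conv_lhs => rw [← re_add_im u]
    have : ((u.re : ℂ) + u.im * I) = u.re • (1:ℂ) + u.im • I := by simp
    rw [this, map_add, map_smul, map_smul, smul_eq_mul, smul_eq_mul]
  have e2 : ∀ C : ℂ →L[ℝ] ℝ, C (u * I) = -u.im * C 1 + u.re * C I := fun C => by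
    have : u * I = (-u.im) • (1:ℂ) + u.re • I := by
      apply Complex.ext <;> simp
    rw [this, map_add, map_smul, map_smul, smul_eq_mul, smul_eq_mul]
  rw [e1 A, e1 B, e2 A, e2 B, gip, ← normSq_eq_norm_sq, normSq_apply]
  ring

/-! ### integrals over images of sets in log-polar coordinates -/

lemma injOn_lw : InjOn lw slitPlane := by
  intro z hz z' hz' h
  have h1 : Complex.log z = Complex.log z' := add_right_cancel h
  rw [← Complex.exp_log (slitPlane_ne_zero hz), h1, Complex.exp_log (slitPlane_ne_zero hz')]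

lemma det_mul_one (u : ℂ) : (u • (1 : ℂ →L[ℝ] ℂ)).det = ‖u‖ ^ 2 := by
  have h : ((u • (1 : ℂ →L[ℝ] ℂ) : ℂ →L[ℝ] ℂ) : ℂ →ₗ[ℝ] ℂ) = Algebra.lmul ℝ ℂ u := by
    ext <;> simp
  rw [ContinuousLinearMap.det, h, ← Algebra.norm_apply, Algebra.norm_complex_apply,
    normSq_eq_norm_sq]

/-- change of variables -/
theorem integral_lw {A : Set ℂ} (hA : MeasurableSet A) (hs : A ⊆ slitPlane) (H : ℂ → ℝ) :
    ∫ w in lw '' A, H w = ∫ z in A, ‖z⁻¹‖ ^ 2 * H (lw z) := by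
  rw [integral_image_eq_integral_abs_det_fderiv_smul volume hA
    (fun z hz => (hasFDerivAt_lw (hs hz)).hasFDerivWithinAt) (injOn_lw.mono hs)]
  refine setIntegral_congr_fun hA fun z _ => ?_
  simp only [det_mul_one, smul_eq_mul, abs_pow, abs_norm]

lemma integrableOn_lw {A : Set ℂ} (hA : MeasurableSet A) (hs : A ⊆ slitPlane) (H : ℂ → ℝ) :
    IntegrableOn H (lw '' A) ↔ IntegrableOn (fun z => ‖z⁻¹‖ ^ 2 * H (lw z)) A := by
  rw [integrableOn_image_iff_integrableOn_abs_det_fderiv_smul volume hA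
    (fun z hz => (hasFDerivAt_lw (hs hz)).hasFDerivWithinAt) (injOn_lw.mono hs)]
  simp only [det_mul_one, smul_eq_mul, abs_pow, abs_norm]

namespace CellC2

variable {F G : ℂ → ℝ} {F' G' : ℂ → ℂ →L[ℝ] ℝ} {M N : ℝ} {a : ℂ}

lemma continuousOn_lw (hs : ccell a ⊆ slitPlane) : ContinuousOn lw (ccell a) := fun z hz =>
  (hasDerivAt_lw (hs hz)).continuousAt.continuousWithinAt

lemma continuousOn (h : CellC2 F F' M a) : ContinuousOn (fun z => F' (lw z)) (ccell a) := by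
  intro z₀ hz₀
  have h1 : Filter.Tendsto (fun z => M * ‖lw z - lw z₀‖) (nhdsWithin z₀ (ccell a)) (nhds 0) := by
    have h2 : ContinuousWithinAt (fun z => M * ‖lw z - lw z₀‖) (ccell a) z₀ :=
      (((continuousOn_lw h.slit) z₀ hz₀).sub continuousWithinAt_const).norm.const_mul M
    have h3 := h2.tendsto
    simpa using h3
  rw [ContinuousWithinAt, tendsto_iff_norm_sub_tendsto_zero]
  refine squeeze_zero' (Filter.Eventually.of_forall fun _ => norm_nonneg _) ?_ h1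
  filter_upwards [self_mem_nhdsWithin] with z hz using h.lip z hz z₀ hz₀

lemma integrableOn_gip (h : CellC2 F F' M a) (k : CellC2 G G' N a) :
    IntegrableOn (fun z => ‖z⁻¹‖ ^ 2 * gip (F' (lw z)) (G' (lw z))) (qcell a) := by
  refine (ContinuousOn.integrableOn_compact (isCompact_ccell a) ?_).mono_set (qcell_subset a)
  refine ContinuousOn.mul ((ContinuousOn.inv₀ continuousOn_id fun _ hz =>
    slitPlane_ne_zero (h.slit hz)).norm.pow 2) ?_
  unfold gip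
  exact ((h.continuousOn.clm_apply continuousOn_const).mul
    (k.continuousOn.clm_apply continuousOn_const)).add
    ((h.continuousOn.clm_apply continuousOn_const).mul
    (k.continuousOn.clm_apply continuousOn_const))

lemma gip_dl (F' G' : ℂ → ℂ →L[ℝ] ℝ) (z : ℂ) :
    dl F' z 1 * dl G' z 1 + dl F' z I * dl G' z I = ‖z⁻¹‖ ^ 2 * gip (F' (lw z)) (G' (lw z)) := by
  rw [dl_apply, dl_apply, dl_apply, dl_apply, mul_one]
  exact gip_comp _ _ _

/-- products of differences against the product of the derivatives, pointwise -/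
lemma prod_le (h : CellC2 F F' M a) (k : CellC2 G G' N a) (ha : 4 ≤ ‖a‖) {z z₀ v : ℂ}
    (hv : ‖v‖ = 1) (hz : z ∈ ccell a) (hzv : z + v ∈ ccell a) (hz₀ : z₀ ∈ ccell a) :
    |(F (lw (z + v)) - F (lw z)) * (G (lw (z + v)) - G (lw z)) - dl F' z₀ v * dl G' z₀ v|
      ≤ 64 * M * N / ‖a‖ ^ 3 := by
  have hM := h.M_nonneg
  have hN := k.M_nonneg
  have ha0 : 0 < ‖a‖ := by linarith
  have e : z + v - z = v := by ring
  have h1 := h.diff_approx ha hzv hz hz₀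
  have h2 := k.diff_approx ha hzv hz hz₀
  have h3 := h.diff_le ha hzv hz
  rw [e, hv, mul_one] at h1 h2 h3
  have h4 : |dl G' z₀ v| ≤ 2 * N / ‖a‖ := by
    have := (dl G' z₀).le_opNorm v
    rw [hv, mul_one] at this
    exact this.trans (norm_dl_le ha hz₀ (k.bound _ hz₀))
  set x := F (lw (z + v)) - F (lw z)
  set y := G (lw (z + v)) - G (lw z)
  calc |x * y - dl F' z₀ v * dl G' z₀ v|
      = |x * (y - dl G' z₀ v) + dl G' z₀ v * (x - dl F' z₀ v)| := by congr 1; ring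
    _ ≤ |x * (y - dl G' z₀ v)| + |dl G' z₀ v * (x - dl F' z₀ v)| := abs_add_le _ _
    _ = |x| * |y - dl G' z₀ v| + |dl G' z₀ v| * |x - dl F' z₀ v| := by rw [abs_mul, abs_mul]
    _ ≤ 2 * M / ‖a‖ * (16 * N / ‖a‖ ^ 2) + 2 * N / ‖a‖ * (16 * M / ‖a‖ ^ 2) := by gcongr
    _ = 64 * M * N / ‖a‖ ^ 3 := by field_simp; ring

/-- **the estimate on one cell**: the sum of the products of the two differences at the lower left
corner is the integral of the product of the gradients over the image of the cell, up to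
`128 M N / |a|^3` -/
theorem cell_est (h : CellC2 F F' M a) (k : CellC2 G G' N a) (ha : 4 ≤ ‖a‖) :
    |(F (lw (a + 1)) - F (lw a)) * (G (lw (a + 1)) - G (lw a))
      + (F (lw (a + I)) - F (lw a)) * (G (lw (a + I)) - G (lw a))
      - ∫ w in lw '' qcell a, gip (F' w) (G' w)| ≤ 128 * M * N / ‖a‖ ^ 3 := by
  rw [integral_lw (measurableSet_qcell a) ((qcell_subset a).trans h.slit)]
  set D := (F (lw (a + 1)) - F (lw a)) * (G (lw (a + 1)) - G (lw a))
      + (F (lw (a + I)) - F (lw a)) * (G (lw (a + I)) - G (lw a)) with hD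
  have hv : (volume.real (qcell a)) = 1 := by rw [Measure.real, volume_qcell]; simp
  have h1 : D = ∫ _ in qcell a, D := by
    rw [setIntegral_const, hv, one_smul]
  have hi : IntegrableOn (fun _ : ℂ => D) (qcell a) :=
    integrableOn_const (by rw [volume_qcell]; simp)
  rw [h1, ← integral_sub hi (h.integrableOn_gip k)]
  have h2 : ∀ z ∈ qcell a, ‖D - ‖z⁻¹‖ ^ 2 * gip (F' (lw z)) (G' (lw z))‖
      ≤ 128 * M * N / ‖a‖ ^ 3 := by
    intro z hz
    have hz' := qcell_subset a hz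
    have k1 := h.prod_le k ha (v := 1) (by simp) (self_mem a) (add_one_mem a) hz'
    have k2 := h.prod_le k ha (v := I) (by simp) (self_mem a) (add_I_mem a) hz'
    rw [← gip_dl, Real.norm_eq_abs, hD]
    calc _ = |((F (lw (a + 1)) - F (lw a)) * (G (lw (a + 1)) - G (lw a)) - dl F' z 1 * dl G' z 1)
        + ((F (lw (a + I)) - F (lw a)) * (G (lw (a + I)) - G (lw a)) - dl F' z I * dl G' z I)| := by
          congr 1; ring
      _ ≤ _ := abs_add_le _ _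
      _ ≤ 64 * M * N / ‖a‖ ^ 3 + 64 * M * N / ‖a‖ ^ 3 := add_le_add k1 k2
      _ = _ := by ring
  have h3 := norm_setIntegral_le_of_norm_le_const (μ := volume)
    (by rw [volume_qcell]; simp) h2
  rw [hv, mul_one] at h3
  exact h3

end CellC2

end

end Vale.Agent.P159.R2.H395
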