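import Vale.Agent.P159.R2.H395.LogPolSum

/-!
P159 T1, D.pot (P4): sums over good cells; good cells and rays.
-/

open Complex MeasureTheory Set Metric

namespace Vale.Agent.P159.R2.H395

noncomputable section

lemma sp_right (P : ℤ × ℤ) : sp (P.1 + 1, P.2) = sp P + 1 := by
  apply Complex.ext <;> simp [sp]

lemma sp_up (P : ℤ × ℤ) : sp (P.1, P.2 + 1) = sp P + I := by
  apply Complex.ext <;> simp [sp]

/-- the two products of differences at a site -/
def dd (F G : ℂ → ℝ) (P : ℤ × ℤ) : ℝ :=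
  (F (lw (sp (P.1 + 1, P.2))) - F (lw (sp P))) * (G (lw (sp (P.1 + 1, P.2))) - G (lw (sp P)))
    + (F (lw (sp (P.1, P.2 + 1))) - F (lw (sp P))) * (G (lw (sp (P.1, P.2 + 1))) - G (lw (sp P)))

variable {F G : ℂ → ℝ} {F' G' : ℂ → ℂ →L[ℝ] ℝ} {M N : ℝ}

lemma dd_est {P : ℤ × ℤ} (h : CellC2 F F' M (sp P)) (k : CellC2 G G' N (sp P)) (hP : 4 ≤ mx P) :
    |dd F G P - ∫ w in lw '' qcell (sp P), gip (F' w) (G' w)| ≤ 128 * M * N / ‖sp P‖ ^ 3 := by
  have h4 : (4:ℝ) ≤ ‖sp P‖ := by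
    have : (4:ℝ) ≤ mx P := by exact_mod_cast hP
    exact this.trans (mx_le_norm P)
  unfold dd
  rw [sp_right, sp_up]
  exact h.cell_est k h4

/-- crude bound on a good cell -/
lemma dd_le {P : ℤ × ℤ} (h : CellC2 F F' M (sp P)) (k : CellC2 G G' N (sp P)) (hP : 4 ≤ mx P) :
    |dd F G P| ≤ 8 * M * N / ‖sp P‖ ^ 2 := by
  have h4 : (4:ℝ) ≤ ‖sp P‖ := by
    have : (4:ℝ) ≤ mx P := by exact_mod_cast hP
    exact this.trans (mx_le_norm P)
  have hM := h.M_nonneg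
  have hN := k.M_nonneg
  have h1 := h.diff_le h4 (add_one_mem _) (self_mem _)
  have h2 := k.diff_le h4 (add_one_mem _) (self_mem _)
  have h3 := h.diff_le h4 (add_I_mem _) (self_mem _)
  have h5 := k.diff_le h4 (add_I_mem _) (self_mem _)
  simp only [add_sub_cancel_left, norm_one, norm_I, mul_one] at h1 h2 h3 h5
  unfold dd
  rw [sp_right, sp_up]
  refine (abs_add_le _ _).trans ?_
  rw [abs_mul, abs_mul]
  calc _ ≤ 2 * M / ‖sp P‖ * (2 * N / ‖sp P‖) + 2 * M / ‖sp P‖ * (2 * N / ‖sp P‖) := by gcongr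
    _ = 8 * M * N / ‖sp P‖ ^ 2 := by
        have : ‖sp P‖ ≠ 0 := by positivity
        field_simp; ring

/-- **sum over good cells with weights** -/
theorem sum_good {S : Finset (ℤ × ℤ)} {n : ℕ} (hn : 4 ≤ n) (hS : ∀ P ∈ S, n ≤ mx P)
    (hF : ∀ P ∈ S, CellC2 F F' M (sp P)) (hG : ∀ P ∈ S, CellC2 G G' N (sp P))
    {c : ℤ × ℤ → ℝ} {K : ℝ} (hc : ∀ P ∈ S, |c P| ≤ K) (hK : 0 ≤ K) (hM : 0 ≤ M) (hN : 0 ≤ N) :
    |∑ P ∈ S, c P * dd F G P - ∑ P ∈ S, c P * ∫ w in lw '' qcell (sp P), gip (F' w) (G' w)|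
      ≤ 2048 * K * M * N / n := by
  rw [← Finset.sum_sub_distrib]
  calc _ ≤ ∑ P ∈ S, |c P * dd F G P - c P * ∫ w in lw '' qcell (sp P), gip (F' w) (G' w)| :=
        Finset.abs_sum_le_sum_abs _ _
    _ ≤ ∑ P ∈ S, K * (128 * M * N) * (1 / ‖sp P‖ ^ 3) := by
        refine Finset.sum_le_sum fun P hP => ?_
        rw [← mul_sub, abs_mul]
        calc _ ≤ K * (128 * M * N / ‖sp P‖ ^ 3) :=
              mul_le_mul (hc P hP) (dd_est (hF P hP) (hG P hP) (hn.trans (hS P hP)))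
                (abs_nonneg _) hK
          _ = _ := by ring
    _ = K * (128 * M * N) * ∑ P ∈ S, (1:ℝ) / ‖sp P‖ ^ 3 := by rw [Finset.mul_sum]
    _ ≤ K * (128 * M * N) * (16 / (n:ℝ)) := by
        gcongr
        exact sum_inv_cube_le (by omega) hS
    _ = _ := by ring

/-- the same as an integral, if the integrand agrees with `c P * ∇F·∇G` on the cell `P` -/
theorem sum_good' {S : Finset (ℤ × ℤ)} {n : ℕ} (hn : 4 ≤ n) (hS : ∀ P ∈ S, n ≤ mx P)
    (hF : ∀ P ∈ S, CellC2 F F' M (sp P)) (hG : ∀ P ∈ S, CellC2 G G' N (sp P))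
    {c : ℤ × ℤ → ℝ} {K : ℝ} (hc : ∀ P ∈ S, |c P| ≤ K) (hK : 0 ≤ K) (hM : 0 ≤ M) (hN : 0 ≤ N)
    {H : ℂ → ℝ} (hH : ∀ P ∈ S, ∀ w ∈ lw '' qcell (sp P), H w = c P * gip (F' w) (G' w)) :
    |∑ P ∈ S, c P * dd F G P - ∫ w in lw '' cells S, H w| ≤ 2048 * K * M * N / n := by
  have hq : ∀ P ∈ S, qcell (sp P) ⊆ slitPlane := fun P hP => (qcell_subset _).trans (hF P hP).slit
  have hmeas : ∀ P ∈ S, MeasurableSet (lw '' qcell (sp P)) := fun P hP =>
    measurable_image_of_fderivWithin (measurableSet_qcell _)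
      (fun z hz => (hasFDerivAt_lw (hq P hP hz)).hasFDerivWithinAt) (injOn_lw.mono (hq P hP))
  have hi : ∀ P ∈ S, IntegrableOn H (lw '' qcell (sp P)) := fun P hP => by
    have h1 : IntegrableOn (fun w => c P * gip (F' w) (G' w)) (lw '' qcell (sp P)) := by
      refine Integrable.const_mul ?_ _
      exact (integrableOn_lw (measurableSet_qcell _) (hq P hP) _).2
        ((hF P hP).integrableOn_gip (hG P hP))
    exact h1.congr_fun (fun w hw => (hH P hP w hw).symm) (hmeas P hP)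
  rw [integral_cells (fun P hP => (hF P hP).slit) hi]
  have e : ∑ P ∈ S, ∫ w in lw '' qcell (sp P), H w
      = ∑ P ∈ S, c P * ∫ w in lw '' qcell (sp P), gip (F' w) (G' w) := by
    refine Finset.sum_congr rfl fun P hP => ?_
    rw [← integral_const_mul]
    exact setIntegral_congr_fun (hmeas P hP) fun w hw => hH P hP w hw
  rw [e]
  exact sum_good hn hS hF hG hc hK hM hN

end

end Vale.Agent.P159.R2.H395
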