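import Vale.Agent.P159.R2.H395.LogPol

/-!
P159 T1, D.pot (P4): sums over lattice cells in log-polar coordinates.
-/

open Complex MeasureTheory Set Metric

namespace Vale.Agent.P159.R2.H395

noncomputable section

/-- the point of a site, the tip is the origin -/
def sp (P : ℤ × ℤ) : ℂ := ⟨P.1, P.2⟩

/-- sup norm of a site -/
def mx (P : ℤ × ℤ) : ℕ := max P.1.natAbs P.2.natAbs

lemma mx_le_norm (P : ℤ × ℤ) : (mx P : ℝ) ≤ ‖sp P‖ := by
  unfold mx
  rw [Nat.cast_max, max_le_iff]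
  constructor
  · have := abs_re_le_norm (sp P)
    rwa [show (sp P).re = (P.1 : ℝ) from rfl, ← Int.cast_abs, Int.abs_eq_natAbs, Int.cast_natCast]
      at this
  · have := abs_im_le_norm (sp P)
    rwa [show (sp P).im = (P.2 : ℝ) from rfl, ← Int.cast_abs, Int.abs_eq_natAbs, Int.cast_natCast]
      at this

lemma abs_le_mx (P : ℤ × ℤ) : |(P.1 : ℝ)| ≤ mx P ∧ |(P.2 : ℝ)| ≤ mx P := by
  unfold mx
  constructor
  · rw [← Int.cast_abs, Int.abs_eq_natAbs, Int.cast_natCast, Nat.cast_le]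
    exact le_max_left _ _
  · rw [← Int.cast_abs, Int.abs_eq_natAbs, Int.cast_natCast, Nat.cast_le]
    exact le_max_right _ _

lemma norm_le_mx (P : ℤ × ℤ) : ‖sp P‖ ≤ 2 * mx P := by
  have h := abs_le_mx P
  calc ‖sp P‖ ≤ |(sp P).re| + |(sp P).im| := norm_le_abs_re_add_abs_im _
    _ ≤ mx P + mx P := add_le_add h.1 h.2
    _ = 2 * mx P := by ring

/-- sums over sites by shells of the sup norm -/
lemma sum_shell {S : Finset (ℤ × ℤ)} {n : ℕ} (hn : 1 ≤ n) (hS : ∀ P ∈ S, n ≤ mx P)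
    {g : ℤ × ℤ → ℝ} {K : ℝ} (hK : 0 ≤ K)
    (hg : ∀ m, n ≤ m → ∑ P ∈ S with mx P = m, g P ≤ K / m ^ 2) :
    ∑ P ∈ S, g P ≤ 2 * K / n := by
  classical
  have hmap : ∀ P ∈ S, mx P ∈ Finset.Ioo (n - 1) (S.sup mx + 1) := fun P hP => by
    rw [Finset.mem_Ioo]
    have h1 := hS P hP
    have h2 := Finset.le_sup (f := mx) hP
    omega
  rw [← Finset.sum_fiberwise_of_maps_to hmap]
  calc ∑ m ∈ Finset.Ioo (n - 1) (S.sup mx + 1), ∑ P ∈ S with mx P = m, g P
      ≤ ∑ m ∈ Finset.Ioo (n - 1) (S.sup mx + 1), K * ((m:ℝ) ^ 2)⁻¹ := by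
        refine Finset.sum_le_sum fun m hm => ?_
        rw [Finset.mem_Ioo] at hm
        rw [← div_eq_mul_inv]
        exact hg m (by omega)
    _ = K * ∑ m ∈ Finset.Ioo (n - 1) (S.sup mx + 1), ((m:ℝ) ^ 2)⁻¹ := by rw [Finset.mul_sum]
    _ ≤ K * (2 / ((n - 1 : ℕ) + 1)) := by gcongr; exact sum_Ioo_inv_sq_le _ _
    _ = 2 * K / n := by
        rw [Nat.cast_sub hn]
        push_cast
        ring

/-- **sum of `1/|P|^3` outside a ball** -/
theorem sum_inv_cube_le {S : Finset (ℤ × ℤ)} {n : ℕ} (hn : 1 ≤ n) (hS : ∀ P ∈ S, n ≤ mx P) :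
    ∑ P ∈ S, (1:ℝ) / ‖sp P‖ ^ 3 ≤ 16 / (n:ℝ) := by
  classical
  refine (sum_shell hn hS (K := 8) (by norm_num) fun m hm => ?_).trans (by norm_num)
  have hm0 : 0 < m := by omega
  have hm0' : (0:ℝ) < m := by exact_mod_cast hm0
  have hc : ((S.filter fun P => mx P = m).card : ℝ) ≤ 8 * m := by
    have h1 : (S.filter fun P => mx P = m) ⊆ (Finset.box m : Finset (ℤ × ℤ)) := fun P hP => by
      rw [Finset.mem_filter] at hP
      rw [Int.mem_box]
      exact hP.2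
    have h2 := Finset.card_le_card h1
    rw [Int.card_box hm0.ne'] at h2
    exact_mod_cast h2
  calc ∑ P ∈ S with mx P = m, 1 / ‖sp P‖ ^ 3 ≤ ∑ P ∈ S with mx P = m, 1 / (m:ℝ) ^ 3 := by
        refine Finset.sum_le_sum fun P hP => ?_
        rw [Finset.mem_filter] at hP
        have := mx_le_norm P
        rw [hP.2] at this
        gcongr
    _ = (S.filter fun P => mx P = m).card * (1 / (m:ℝ) ^ 3) := by
        rw [Finset.sum_const, nsmul_eq_mul]
    _ ≤ 8 * m * (1 / (m:ℝ) ^ 3) := by gcongr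
    _ = 8 / (m:ℝ) ^ 2 := by field_simp

/-- **sum of `1/|P|^2` over a set with at most `K` points in each shell** -/
theorem sum_inv_sq_le {S : Finset (ℤ × ℤ)} {n K : ℕ} (hn : 1 ≤ n) (hS : ∀ P ∈ S, n ≤ mx P)
    (hK : ∀ m, n ≤ m → (S.filter fun P => mx P = m).card ≤ K) :
    ∑ P ∈ S, (1:ℝ) / ‖sp P‖ ^ 2 ≤ 2 * (K:ℝ) / (n:ℝ) := by
  classical
  refine sum_shell hn hS (K := K) (by positivity) fun m hm => ?_
  have hm0' : (0:ℝ) < m := by exact_mod_cast (by omega : 0 < m)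
  calc ∑ P ∈ S with mx P = m, 1 / ‖sp P‖ ^ 2 ≤ ∑ P ∈ S with mx P = m, 1 / (m:ℝ) ^ 2 := by
        refine Finset.sum_le_sum fun P hP => ?_
        rw [Finset.mem_filter] at hP
        have := mx_le_norm P
        rw [hP.2] at this
        gcongr
    _ = (S.filter fun P => mx P = m).card * (1 / (m:ℝ) ^ 2) := by
        rw [Finset.sum_const, nsmul_eq_mul]
    _ ≤ K * (1 / (m:ℝ) ^ 2) := by
        have : ((S.filter fun P => mx P = m).card : ℝ) ≤ K := by exact_mod_cast hK m hm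
        gcongr
    _ = K / (m:ℝ) ^ 2 := by ring

/-- sites at sup distance at most `ρ` of the ray with direction `u` -/
def nearRay (u : ℂ) (ρ : ℝ) (P : ℤ × ℤ) : Prop :=
  ∃ t : ℝ, 0 ≤ t ∧ |(P.1 : ℝ) - t * u.re| ≤ ρ ∧ |(P.2 : ℝ) - t * u.im| ≤ ρ

/-- **a thickened ray has boundedly many sites in each shell** (`u` of sup norm `1`) -/
theorem card_nearRay {u : ℂ} (hu : (|u.re| = 1 ∧ |u.im| ≤ 1) ∨ (|u.re| ≤ 1 ∧ |u.im| = 1)) {ρ : ℕ}
    {S : Finset (ℤ × ℤ)} (hS : ∀ P ∈ S, nearRay u ρ P) (m : ℕ) :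
    (S.filter fun P => mx P = m).card ≤ (4 * ρ + 2) ^ 2 := by
  classical
  -- all the points of the shell are within `2ρ` of `m u`
  have key : ∀ P ∈ S.filter (fun P => mx P = m),
      |(P.1 : ℝ) - m * u.re| ≤ 2 * ρ ∧ |(P.2 : ℝ) - m * u.im| ≤ 2 * ρ := by
    intro P hP
    rw [Finset.mem_filter] at hP
    obtain ⟨t, ht, h1, h2⟩ := hS P hP.1
    have hm := abs_le_mx P
    rw [hP.2] at hm
    have hu' : |u.re| ≤ 1 ∧ |u.im| ≤ 1 := by
      rcases hu with h | h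
      · exact ⟨h.1.le, h.2⟩
      · exact ⟨h.1, h.2.le⟩
    -- `|m - t| ≤ ρ`
    have hmt : |(m:ℝ) - t| ≤ ρ := by
      rw [abs_le]
      constructor
      · -- `t ≤ m + ρ`
        rcases hu with h | h
        · have e : t = |t * u.re| := by rw [abs_mul, h.1, mul_one, abs_of_nonneg ht]
          have h3 : |t * u.re| ≤ |(P.1:ℝ)| + ρ := by
            have := abs_sub_abs_le_abs_sub (t * u.re) (P.1:ℝ)
            rw [abs_sub_comm] at this
            linarith
          linarith [hm.1]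
        · have e : t = |t * u.im| := by rw [abs_mul, h.2, mul_one, abs_of_nonneg ht]
          have h3 : |t * u.im| ≤ |(P.2:ℝ)| + ρ := by
            have := abs_sub_abs_le_abs_sub (t * u.im) (P.2:ℝ)
            rw [abs_sub_comm] at this
            linarith
          linarith [hm.2]
      · -- `m ≤ t + ρ`
        have h3 : |(P.1:ℝ)| ≤ t + ρ := by
          have h4 := abs_sub_abs_le_abs_sub (P.1:ℝ) (t * u.re)
          rw [abs_mul, abs_of_nonneg ht] at h4
          have : t * |u.re| ≤ t * 1 := by gcongr; exact hu'.1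
          linarith
        have h3' : |(P.2:ℝ)| ≤ t + ρ := by
          have h4 := abs_sub_abs_le_abs_sub (P.2:ℝ) (t * u.im)
          rw [abs_mul, abs_of_nonneg ht] at h4
          have : t * |u.im| ≤ t * 1 := by gcongr; exact hu'.2
          linarith
        have h5 : (mx P : ℝ) ≤ t + ρ := by
          unfold mx
          rw [Nat.cast_max, max_le_iff]
          constructor
          · rwa [← Int.cast_abs, Int.abs_eq_natAbs, Int.cast_natCast] at h3
          · rwa [← Int.cast_abs, Int.abs_eq_natAbs, Int.cast_natCast] at h3'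
        rw [hP.2] at h5
        linarith
    constructor
    · calc |(P.1 : ℝ) - m * u.re| = |((P.1:ℝ) - t * u.re) + (t - m) * u.re| := by congr 1; ring
        _ ≤ |(P.1:ℝ) - t * u.re| + |(t - m) * u.re| := abs_add_le _ _
        _ ≤ ρ + ρ * 1 := by
            rw [abs_mul, abs_sub_comm t]
            gcongr
            exact hu'.1
        _ = 2 * ρ := by ring
    · calc |(P.2 : ℝ) - m * u.im| = |((P.2:ℝ) - t * u.im) + (t - m) * u.im| := by congr 1; ring
        _ ≤ |(P.2:ℝ) - t * u.im| + |(t - m) * u.im| := abs_add_le _ _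
        _ ≤ ρ + ρ * 1 := by
            rw [abs_mul, abs_sub_comm t]
            gcongr
            exact hu'.2
        _ = 2 * ρ := by ring
  have hsub : S.filter (fun P => mx P = m) ⊆
      Finset.Icc (⌊m * u.re⌋ - 2 * ρ) (⌊m * u.re⌋ + 2 * ρ + 1) ×ˢ
        Finset.Icc (⌊m * u.im⌋ - 2 * ρ) (⌊m * u.im⌋ + 2 * ρ + 1) := by
    intro P hP
    obtain ⟨h1, h2⟩ := key P hP
    rw [abs_le] at h1 h2
    rw [Finset.mem_product, Finset.mem_Icc, Finset.mem_Icc]
    have a1 := Int.floor_le (m * u.re)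
    have a2 := Int.lt_floor_add_one (m * u.re)
    have b1 := Int.floor_le (m * u.im)
    have b2 := Int.lt_floor_add_one (m * u.im)
    refine ⟨⟨?_, ?_⟩, ?_, ?_⟩
    · have : ((⌊m * u.re⌋ - 2 * ρ : ℤ) : ℝ) ≤ P.1 := by push_cast; linarith [h1.1]
      exact_mod_cast this
    · have : (P.1 : ℝ) ≤ ((⌊m * u.re⌋ + 2 * ρ + 1 : ℤ) : ℝ) := by push_cast; linarith [h1.2]
      exact_mod_cast this
    · have : ((⌊m * u.im⌋ - 2 * ρ : ℤ) : ℝ) ≤ P.2 := by push_cast; linarith [h2.1]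
      exact_mod_cast this
    · have : (P.2 : ℝ) ≤ ((⌊m * u.im⌋ + 2 * ρ + 1 : ℤ) : ℝ) := by push_cast; linarith [h2.2]
      exact_mod_cast this
  refine (Finset.card_le_card hsub).trans ?_
  rw [Finset.card_product, Int.card_Icc, Int.card_Icc, sq]
  have e1 : (⌊(m:ℝ) * u.re⌋ + 2 * (ρ:ℤ) + 1 + 1 - (⌊(m:ℝ) * u.re⌋ - 2 * ρ)).toNat = 4 * ρ + 2 := by
    omega
  have e2 : (⌊(m:ℝ) * u.im⌋ + 2 * (ρ:ℤ) + 1 + 1 - (⌊(m:ℝ) * u.im⌋ - 2 * ρ)).toNat = 4 * ρ + 2 := by
    omega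
  rw [e1, e2]

/-- sum of `1/|P|^2` over a thickened ray -/
theorem sum_nearRay_le {u : ℂ} (hu : (|u.re| = 1 ∧ |u.im| ≤ 1) ∨ (|u.re| ≤ 1 ∧ |u.im| = 1)) {ρ n : ℕ}
    (hn : 1 ≤ n) {S : Finset (ℤ × ℤ)} (hS : ∀ P ∈ S, n ≤ mx P) (hS' : ∀ P ∈ S, nearRay u ρ P) :
    ∑ P ∈ S, (1:ℝ) / ‖sp P‖ ^ 2 ≤ 2 * (4 * (ρ:ℝ) + 2) ^ 2 / (n:ℝ) := by
  have := sum_inv_sq_le (K := (4 * ρ + 2) ^ 2) hn hS fun m _ => card_nearRay hu hS' m
  exact_mod_cast this

/-! ### cells -/

lemma qcell_disjoint {P Q : ℤ × ℤ} (h : P ≠ Q) : Disjoint (qcell (sp P)) (qcell (sp Q)) := by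
  rw [Set.disjoint_left]
  intro z hz hz'
  rw [mem_qcell] at hz hz'
  simp only [sp] at hz hz'
  apply h
  have e1 : P.1 = Q.1 := by
    have a : (P.1:ℝ) < Q.1 + 1 := by linarith [hz.1.1, hz'.1.2]
    have b : (Q.1:ℝ) < P.1 + 1 := by linarith [hz'.1.1, hz.1.2]
    have a' : P.1 < Q.1 + 1 := by exact_mod_cast a
    have b' : Q.1 < P.1 + 1 := by exact_mod_cast b
    omega
  have e2 : P.2 = Q.2 := by
    have a : (P.2:ℝ) < Q.2 + 1 := by linarith [hz.2.1, hz'.2.2]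
    have b : (Q.2:ℝ) < P.2 + 1 := by linarith [hz'.2.1, hz.2.2]
    have a' : P.2 < Q.2 + 1 := by exact_mod_cast a
    have b' : Q.2 < P.2 + 1 := by exact_mod_cast b
    omega
  exact Prod.ext e1 e2

/-- the union of the half open cells of a finite set of sites -/
def cells (S : Finset (ℤ × ℤ)) : Set ℂ := ⋃ P ∈ S, qcell (sp P)

lemma measurableSet_cells (S : Finset (ℤ × ℤ)) : MeasurableSet (cells S) :=
  S.measurableSet_biUnion fun _ _ => measurableSet_qcell _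

/-- the integral over the image of the union of the cells -/
theorem integral_cells {S : Finset (ℤ × ℤ)} (hs : ∀ P ∈ S, ccell (sp P) ⊆ slitPlane) {H : ℂ → ℝ}
    (hi : ∀ P ∈ S, IntegrableOn H (lw '' qcell (sp P))) :
    ∫ w in lw '' cells S, H w = ∑ P ∈ S, ∫ w in lw '' qcell (sp P), H w := by
  have hq : ∀ P ∈ S, qcell (sp P) ⊆ slitPlane := fun P hP => (qcell_subset _).trans (hs P hP)
  have hc : cells S ⊆ slitPlane := iUnion₂_subset hq
  rw [integral_lw (measurableSet_cells S) hc]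
  unfold cells
  rw [integral_biUnion_finset S (fun P _ => measurableSet_qcell _)
    (fun P _ Q _ h => qcell_disjoint h)
    (fun P hP => (integrableOn_lw (measurableSet_qcell _) (hq P hP) H).1 (hi P hP))]
  exact Finset.sum_congr rfl fun P hP => (integral_lw (measurableSet_qcell _) (hq P hP) H).symm

end

end Vale.Agent.P159.R2.H395
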